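import Vale.Agent.P143.Cay

namespace Vale.Agent.Results.P143.FusfFactor

open Vale.Agent.P143 MeasureTheory

theorem result :
    (∀ (Γ : Type) [Group Γ] [Infinite Γ] (s : Set Γ), s.Finite → Subgroup.closure s = ⊤ →
      ∃ Φ : (Γ → unitInterval) → ((SimpleGraph.mulCayley s).edgeSet → Bool), Measurable Φ ∧
        (∀ (γ : Γ) (U : Γ → unitInterval) (e e' : (SimpleGraph.mulCayley s).edgeSet),
          e'.1 = e.1.map (fun x => γ * x) → Φ (fun x => U (γ⁻¹ * x)) e' = Φ U e) ∧
        IsFUSF (SimpleGraph.mulCayley s) ((iidLabels Γ).map Φ)) ∧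
    (∃ Φ : (V : Type) → SimpleGraph V → (V → unitInterval) → Sym2 V → Bool,
      (∀ (V V' : Type) (G : SimpleGraph V) (G' : SimpleGraph V') (φ : G ≃g G')
        (U : V → unitInterval) (U' : V' → unitInterval) (e : Sym2 V),
        (∀ v, U' (φ v) = U v) → Φ V' G' U' (e.map φ) = Φ V G U e) ∧
      (∀ (V : Type) [Countable V] (e : Sym2 V),
        Measurable fun x : SimpleGraph V × (V → unitInterval) => Φ V x.1 x.2 e) ∧
      ∀ (V : Type) [Infinite V] (G : SimpleGraph V), G.Connected →
        (∀ v, (G.neighborSet v).Finite) →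
        IsFUSF G ((iidLabels V).map fun U (e : G.edgeSet) => Φ V G U e.1)) := by
  obtain ⟨lab, hlab, hlaw⟩ := exists_lab
  refine ⟨fun Γ _ _ s hs hs' => ?_, fun V G U e => fac lab G U e,
    fun V V' G G' φ U U' e h => fac_iso lab φ h e,
    fun V _ e => measurable_fac hlab measurable_fst measurable_snd e,
    fun V _ G hc hG => isFUSF_fac hlab hlaw hc hG⟩
  have hc := cayley_connected hs'
  have := countable_of_connected hc (cayley_finite hs)
  refine ⟨fun U e => fac lab _ U e.1, measurable_pi_lambda _ fun e =>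
    measurable_fac hlab measurable_const measurable_id _, fun γ U e e' h => ?_,
    isFUSF_fac hlab hlaw hc (cayley_finite hs)⟩
  simp only [h]
  exact fac_iso lab (cayleyIso s γ) (U := U) (U' := fun x => U (γ⁻¹ * x))
    (fun v => congrArg U (inv_mul_cancel_left γ v)) e.1

end Vale.Agent.Results.P143.FusfFactor
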